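import Vale.Agent.P037.Main

namespace Vale.Agent.Results.P037.A_full

open Vale.Agent.P037

theorem result :
    (¬ ∀ (k : ℕ), 1 ≤ k → ∀ H : Matrix (Fin k) (Fin k) (Fin 2),
        ∃ c C : ℝ, 0 < c ∧ 0 < C ∧
          ∀ n : ℕ, 1 ≤ n → ∀ ε : ℝ, 0 < ε → ε < 1 →
            ∀ A : Matrix (Fin n) (Fin n) (Fin 2), ε ≤ distFree H A →
              c * ε ^ C * (n : ℝ) ^ (2 * k) ≤ (numCopies H A : ℝ)) ∧
    (∃ H : Matrix (Fin 10) (Fin 10) (Fin 2), ∀ ε : ℝ, 0 < ε → ε ≤ 1 / 344 ^ 2 →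
        ∃ n₀ : ℕ, ∀ n ≥ n₀, ∃ A : Matrix (Fin n) (Fin n) (Fin 2),
          ε ≤ distFree H A ∧
          (numCopies H A : ℝ) ≤ (2 : ℝ) ^ (-(1 / (168 * √ε))) * (n : ℝ) ^ 20) := by
  refine ⟨fun h => ?_, pat, quant_eps⟩
  obtain ⟨c, C, hc, -, h⟩ := h 10 (by norm_num) pat
  obtain ⟨n, hn, ε, h0, h1, A, hA1, hA2⟩ := not_poly c C hc
  exact absurd (h n hn ε h0 h1 A hA1) (not_le.mpr hA2)

end Vale.Agent.Results.P037.A_full
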